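import Vale.Agent.P034.Additive

/-- If every member of `F` contains a member of size at most the `k`-th tower number
(`4, 2^4, 2^(2^4), …`), then a fractional cover of cost at most `1/2` at `p` yields an integral cover
of cost at most `1/2` at `p / (3 * 2^25 + 16 * k)`. Thus `q_f(F) ≤ (3 * 2^25 + 16 * k) * q(F)`,
that is, `q_f = O(q * log* l)` with `l` the largest size of a minimal member. -/
theorem Vale.Agent.Results.P034.TowerLinear.result {α : Type*} [Fintype α] [DecidableEq α] (k : ℕ)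
    (F : Finset (Finset α))
    (hF : ∀ H ∈ F, ∃ H' ∈ F, H' ⊆ H ∧ H'.card ≤ (fun n : ℕ => 2 ^ n)^[k] 4)
    (p : ℝ) (hp : 0 ≤ p) (g : Finset α → ℝ) (hg : ∀ S, 0 ≤ g S)
    (hcov : ∀ H ∈ F, 1 ≤ ∑ S ∈ H.powerset, g S)
    (hcost : ∑ S : Finset α, g S * p ^ S.card ≤ 1 / 2) :
    ∃ G : Finset (Finset α), (∀ H ∈ F, ∃ U ∈ G, U ⊆ H) ∧
      ∑ U ∈ G, (p / (3 * 2 ^ 25 + 16 * (k : ℝ))) ^ U.card ≤ 1 / 2 :=
  Vale.Agent.P034.main_bound_additive k F hF p hp g hg hcov hcost
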